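import Mathlib

namespace Vale.Agent.Lib.P075

open Finset

/-- sign of a Boolean -/
def sgnB (b : Bool) : ℝ := if b then -1 else 1

/-- local exponent of the sign matrix on one pair of binary digits -/
def Qb (xp xq yp yq : Bool) : Bool := (xp && !(xq ^^ yq)) ^^ (yp && xq)

/-- the sign function on pairs of naturals, a product over `r` pairs of binary digits -/
def sgnFn (r x y : ℕ) : ℝ :=
  ∏ j ∈ range r, sgnB (Qb (x.testBit (2*j)) (x.testBit (2*j+1)) (y.testBit (2*j)) (y.testBit (2*j+1)))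

def phi (r u : ℕ) : ℝ :=
  ∏ j ∈ range r, sgnB (u.testBit (2*j) && !(u.testBit (2*j+1)))

def eta (t a : ℕ) : ℝ := sgnB (a.testBit t)

lemma sgnB_mul_self (b : Bool) : sgnB b * sgnB b = 1 := by cases b <;> simp [sgnB]

lemma abs_sgnB (b : Bool) : |sgnB b| = 1 := by cases b <;> simp [sgnB]

lemma abs_sgnFn (r x y : ℕ) : |sgnFn r x y| = 1 := by
  unfold sgnFn
  rw [Finset.abs_prod]
  exact Finset.prod_eq_one (fun j _ => abs_sgnB _)

lemma sgn_triple (r a b c : ℕ) :
    sgnFn r a b * sgnFn r b c * sgnFn r c a = phi r (a ^^^ b ^^^ c) := by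
  unfold sgnFn phi
  rw [← Finset.prod_mul_distrib, ← Finset.prod_mul_distrib]
  refine Finset.prod_congr rfl (fun j _ => ?_)
  simp only [Nat.testBit_xor]
  generalize a.testBit (2*j) = a0
  generalize a.testBit (2*j+1) = a1
  generalize b.testBit (2*j) = b0
  generalize b.testBit (2*j+1) = b1
  generalize c.testBit (2*j) = c0
  generalize c.testBit (2*j+1) = c1
  cases a0 <;> cases a1 <;> cases b0 <;> cases b1 <;> cases c0 <;> cases c1 <;> simp [sgnB, Qb]

lemma eta_triple (t a b c : ℕ) : eta t a * eta t b * eta t c = eta t (a ^^^ b ^^^ c) := by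
  unfold eta
  simp only [Nat.testBit_xor]
  generalize a.testBit t = a0
  generalize b.testBit t = b0
  generalize c.testBit t = c0
  cases a0 <;> cases b0 <;> cases c0 <;> simp [sgnB]

lemma testBit_pow_add {t u : ℕ} (hu : u < 2 ^ t) (i : ℕ) :
    (2 ^ t + u).testBit i = if i = t then true else u.testBit i := by
  rcases lt_trichotomy i t with h | h | h
  · rw [Nat.testBit_two_pow_add_gt h, if_neg (by omega)]
  · subst h
    rw [Nat.testBit_two_pow_add_eq, Nat.testBit_lt_two_pow hu]; simp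
  · rw [if_neg (by omega)]
    have h1 : 2 ^ t + u < 2 ^ i := by
      calc 2 ^ t + u < 2 ^ t + 2 ^ t := by omega
        _ = 2 ^ (t+1) := by ring
        _ ≤ 2 ^ i := Nat.pow_le_pow_right (by norm_num) h
    have h2 : u < 2 ^ i := by omega
    rw [Nat.testBit_lt_two_pow h1, Nat.testBit_lt_two_pow h2]

lemma testBit_of_lt {u t i : ℕ} (hu : u < 2 ^ t) (h : t ≤ i) : u.testBit i = false :=
  Nat.testBit_lt_two_pow (lt_of_lt_of_le hu (Nat.pow_le_pow_right (by norm_num) h))

/-- flipping the low digit of the `i`-th pair -/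
lemma phi_low {r i u : ℕ} (hi : i < r) (hu : u < 2 ^ (2*i)) :
    phi r (2 ^ (2*i) + u) = - phi r u := by
  unfold phi
  have : ∀ j ∈ range r,
      sgnB ((2 ^ (2*i) + u).testBit (2*j) && !((2 ^ (2*i) + u).testBit (2*j+1)))
        = sgnB (u.testBit (2*j) && !(u.testBit (2*j+1))) * (if j = i then (-1:ℝ) else 1) := by
    intro j _
    rw [testBit_pow_add hu, testBit_pow_add hu]
    by_cases hj : j = i
    · subst hj
      rw [testBit_of_lt hu (le_refl _), testBit_of_lt hu (by omega)]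
      simp [sgnB]
    · rw [if_neg (by omega), if_neg (by omega), if_neg hj]; simp
  rw [Finset.prod_congr rfl this, Finset.prod_mul_distrib, Finset.prod_ite_eq' (range r) i]
  simp [hi]

/-- setting the high digit of the `i`-th pair -/
lemma phi_high0 {r i u : ℕ} (hu : u < 2 ^ (2*i)) :
    phi r (2 ^ (2*i+1) + u) = phi r u := by
  unfold phi
  have hu' : u < 2 ^ (2*i+1) := lt_of_lt_of_le hu (Nat.pow_le_pow_right (by norm_num) (by omega))
  refine Finset.prod_congr rfl (fun j _ => ?_)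
  rw [testBit_pow_add hu', testBit_pow_add hu']
  by_cases hj : j = i
  · subst hj
    rw [testBit_of_lt hu (le_refl _)]
    simp
  · rw [if_neg (by omega), if_neg (by omega)]

lemma phi_high1 {r i u : ℕ} (hu : u < 2 ^ (2*i)) :
    phi r (2 ^ (2*i+1) + (2 ^ (2*i) + u)) = phi r u := by
  unfold phi
  have hu' : 2 ^ (2*i) + u < 2 ^ (2*i+1) := by
    have : 2 ^ (2*i+1) = 2 ^ (2*i) + 2 ^ (2*i) := by ring
    omega
  refine Finset.prod_congr rfl (fun j _ => ?_)
  rw [testBit_pow_add hu', testBit_pow_add hu', testBit_pow_add hu, testBit_pow_add hu]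
  by_cases hj : j = i
  · subst hj
    rw [testBit_of_lt hu (le_refl _)]
    simp
  · rw [if_neg (by omega), if_neg (by omega), if_neg (by omega), if_neg (by omega)]

/-- partial sums of `phi` -/
def Psum (r k : ℕ) : ℝ := ∑ u ∈ range (2 ^ k), phi r u

lemma sum_range_two_pow_succ (f : ℕ → ℝ) (k : ℕ) :
    ∑ u ∈ range (2 ^ (k+1)), f u = ∑ u ∈ range (2 ^ k), f u + ∑ u ∈ range (2 ^ k), f (2 ^ k + u) := by
  have : 2 ^ (k+1) = 2 ^ k + 2 ^ k := by ring
  rw [this, Finset.sum_range_add]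

lemma Psum_zero (r : ℕ) : Psum r 0 = 1 := by
  simp [Psum, phi, sgnB]

lemma Psum_odd {r i : ℕ} (hi : i < r) : Psum r (2*i+1) = 0 := by
  unfold Psum
  rw [sum_range_two_pow_succ]
  rw [Finset.sum_congr rfl (fun u hu => phi_low hi (Finset.mem_range.mp hu))]
  simp

lemma shifted_sum_odd {r i : ℕ} :
    ∑ u ∈ range (2 ^ (2*i+1)), phi r (2 ^ (2*i+1) + u) = 2 * Psum r (2*i) := by
  unfold Psum
  rw [sum_range_two_pow_succ]
  rw [Finset.sum_congr rfl (fun u hu => phi_high0 (Finset.mem_range.mp hu))]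
  rw [Finset.sum_congr rfl (fun u hu => phi_high1 (r := r) (Finset.mem_range.mp hu))]
  ring

lemma Psum_even_succ {r i : ℕ} (hi : i < r) : Psum r (2*i+2) = 2 * Psum r (2*i) := by
  have h := sum_range_two_pow_succ (phi r) (2*i+1)
  have h1 : Psum r (2*i+2) = Psum r (2*i+1) + ∑ u ∈ range (2 ^ (2*i+1)), phi r (2 ^ (2*i+1) + u) := h
  rw [h1, Psum_odd hi, shifted_sum_odd]; ring

lemma Psum_even {r : ℕ} : ∀ i : ℕ, i ≤ r → Psum r (2*i) = 2 ^ i
  | 0, _ => by simpa using Psum_zero r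
  | (i+1), h => by
      have h1 : 2 * (i+1) = 2*i+2 := by ring
      rw [h1, Psum_even_succ (by omega), Psum_even i (by omega)]; ring

/-- the Haar-weighted sum at scale `t+1` -/
def Tsum (r t : ℕ) : ℝ := ∑ u ∈ range (2 ^ (t+1)), phi r u * eta t u

lemma Tsum_eq (r t : ℕ) :
    Tsum r t = Psum r t - ∑ u ∈ range (2 ^ t), phi r (2 ^ t + u) := by
  unfold Tsum Psum
  rw [sum_range_two_pow_succ]
  have e1 : ∀ u ∈ range (2 ^ t), phi r u * eta t u = phi r u := by
    intro u hu
    rw [eta, Nat.testBit_lt_two_pow (Finset.mem_range.mp hu)]; simp [sgnB]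
  have e2 : ∀ u ∈ range (2 ^ t), phi r (2 ^ t + u) * eta t (2 ^ t + u) = - phi r (2 ^ t + u) := by
    intro u hu
    rw [eta, testBit_pow_add (Finset.mem_range.mp hu)]; simp [sgnB]
  rw [Finset.sum_congr rfl e1, Finset.sum_congr rfl e2]
  simp [sub_eq_add_neg]

lemma Tsum_even {r i : ℕ} (hi : i < r) : Tsum r (2*i) = 2 * 2 ^ i := by
  rw [Tsum_eq, Finset.sum_congr rfl (fun u hu => phi_low hi (Finset.mem_range.mp hu))]
  have : ∑ u ∈ range (2 ^ (2*i)), - phi r u = - Psum r (2*i) := by simp [Psum]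
  rw [this, Psum_even i (by omega)]; ring

lemma Tsum_odd {r i : ℕ} (hi : i < r) : Tsum r (2*i+1) = - (2 * 2 ^ i) := by
  rw [Tsum_eq, Psum_odd hi, shifted_sum_odd, Psum_even i (by omega)]; ring

end Vale.Agent.Lib.P075
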