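import Vale.Agent.Lib.P075.Comb

namespace Vale.Agent.Lib.P075

open Finset

lemma xor_shift {s n0 n1 a b c : ℕ} (ha : a < 2 ^ s) (hb : b < 2 ^ s) (hc : c < 2 ^ s) :
    (2 ^ s * n0 + a) ^^^ (2 ^ s * n1 + b) ^^^ (2 ^ s * (n0 ^^^ n1) + c) = a ^^^ b ^^^ c := by
  apply Nat.eq_of_testBit_eq
  intro i
  simp only [Nat.testBit_xor]
  rw [Nat.testBit_two_pow_mul_add _ ha, Nat.testBit_two_pow_mul_add _ hb,
    Nat.testBit_two_pow_mul_add _ hc]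
  by_cases h : i < s
  · simp [h]
  · have h' : s ≤ i := by omega
    simp only [h, if_false, Nat.testBit_xor]
    rw [testBit_of_lt ha h', testBit_of_lt hb h', testBit_of_lt hc h']
    generalize n0.testBit (i - s) = x
    generalize n1.testBit (i - s) = y
    cases x <;> cases y <;> rfl

lemma sum_xor (f : ℕ → ℝ) {s w : ℕ} (hw : w < 2 ^ s) :
    ∑ c ∈ range (2 ^ s), f (w ^^^ c) = ∑ u ∈ range (2 ^ s), f u := by
  refine Finset.sum_nbij' (fun c => w ^^^ c) (fun u => w ^^^ u) ?_ ?_ ?_ ?_ ?_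
  · intro c hc
    exact Finset.mem_range.mpr (Nat.xor_lt_two_pow hw (Finset.mem_range.mp hc))
  · intro c hc
    exact Finset.mem_range.mpr (Nat.xor_lt_two_pow hw (Finset.mem_range.mp hc))
  · intro c _
    rw [← Nat.xor_assoc, Nat.xor_self, Nat.zero_xor]
  · intro c _
    rw [← Nat.xor_assoc, Nat.xor_self, Nat.zero_xor]
  · intro c _; rfl

lemma triple_sum_xor (f : ℕ → ℝ) (s : ℕ) :
    ∑ a ∈ range (2 ^ s), ∑ b ∈ range (2 ^ s), ∑ c ∈ range (2 ^ s), f (a ^^^ b ^^^ c)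
      = (2 ^ s : ℝ) * (2 ^ s : ℝ) * ∑ u ∈ range (2 ^ s), f u := by
  have h : ∀ a ∈ range (2 ^ s), ∀ b ∈ range (2 ^ s),
      ∑ c ∈ range (2 ^ s), f (a ^^^ b ^^^ c) = ∑ u ∈ range (2 ^ s), f u := by
    intro a ha b hb
    exact sum_xor f (Nat.xor_lt_two_pow (Finset.mem_range.mp ha) (Finset.mem_range.mp hb))
  rw [Finset.sum_congr rfl (fun a ha => Finset.sum_congr rfl (h a ha))]
  simp [mul_assoc]

/-- the sign function cut off to the square `[0,4^r)^2` -/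
noncomputable def Sd (r a b : ℕ) : ℝ := if a < 4 ^ r ∧ b < 4 ^ r then sgnFn r a b else 0

noncomputable def Gd (r t a b c : ℕ) : ℝ :=
  Sd r a b * Sd r b c * Sd r c a * (eta t a * eta t b * eta t c)

noncomputable def Dsum (r t n0 n1 n2 : ℕ) : ℝ :=
  ∑ a ∈ Ico (2 ^ (t+1) * n0) (2 ^ (t+1) * (n0+1)),
    ∑ b ∈ Ico (2 ^ (t+1) * n1) (2 ^ (t+1) * (n1+1)),
      ∑ c ∈ Ico (2 ^ (t+1) * n2) (2 ^ (t+1) * (n2+1)), Gd r t a b c

lemma Dsum_eq_range (r t n0 n1 n2 : ℕ) :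
    Dsum r t n0 n1 n2 = ∑ a ∈ range (2 ^ (t+1)), ∑ b ∈ range (2 ^ (t+1)), ∑ c ∈ range (2 ^ (t+1)),
      Gd r t (2 ^ (t+1) * n0 + a) (2 ^ (t+1) * n1 + b) (2 ^ (t+1) * n2 + c) := by
  unfold Dsum
  have e : ∀ n : ℕ, 2 ^ (t+1) * (n+1) - 2 ^ (t+1) * n = 2 ^ (t+1) := by
    intro n; rw [Nat.mul_succ, Nat.add_sub_cancel_left]
  simp only [Finset.sum_Ico_eq_sum_range, e]

lemma four_pow_eq {r t : ℕ} (ht : t < 2*r) : 4 ^ r = 2 ^ (t+1) * 2 ^ (2*r - (t+1)) := by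
  rw [← pow_add]
  have : t + 1 + (2*r - (t+1)) = 2 * r := by omega
  rw [this, pow_mul]; norm_num

lemma lt_four_pow {r t n a : ℕ} (ht : t < 2*r) (hn : n < 2 ^ (2*r - (t+1))) (ha : a < 2 ^ (t+1)) :
    2 ^ (t+1) * n + a < 4 ^ r := by
  rw [four_pow_eq ht]
  calc 2 ^ (t+1) * n + a < 2 ^ (t+1) * n + 2 ^ (t+1) := by omega
    _ = 2 ^ (t+1) * (n+1) := by ring
    _ ≤ 2 ^ (t+1) * 2 ^ (2*r - (t+1)) := Nat.mul_le_mul_left _ hn

lemma ge_four_pow {r t n a : ℕ} (ht : t < 2*r) (hn : 2 ^ (2*r - (t+1)) ≤ n) :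
    ¬ (2 ^ (t+1) * n + a < 4 ^ r) := by
  rw [four_pow_eq ht, not_lt]
  calc 2 ^ (t+1) * 2 ^ (2*r - (t+1)) ≤ 2 ^ (t+1) * n := Nat.mul_le_mul_left _ hn
    _ ≤ 2 ^ (t+1) * n + a := Nat.le_add_right _ _

lemma Dsum_inside {r t n0 n1 : ℕ} (ht : t < 2*r) (h0 : n0 < 2 ^ (2*r - (t+1)))
    (h1 : n1 < 2 ^ (2*r - (t+1))) :
    Dsum r t n0 n1 (n0 ^^^ n1) = (2 ^ (t+1) : ℝ) * (2 ^ (t+1) : ℝ) * Tsum r t := by
  rw [Dsum_eq_range, Tsum, ← triple_sum_xor (fun u => phi r u * eta t u)]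
  refine Finset.sum_congr rfl (fun a ha => Finset.sum_congr rfl (fun b hb =>
    Finset.sum_congr rfl (fun c hc => ?_)))
  have ha' := Finset.mem_range.mp ha
  have hb' := Finset.mem_range.mp hb
  have hc' := Finset.mem_range.mp hc
  have h2 : n0 ^^^ n1 < 2 ^ (2*r - (t+1)) := Nat.xor_lt_two_pow h0 h1
  unfold Gd Sd
  rw [if_pos ⟨lt_four_pow ht h0 ha', lt_four_pow ht h1 hb'⟩,
    if_pos ⟨lt_four_pow ht h1 hb', lt_four_pow ht h2 hc'⟩,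
    if_pos ⟨lt_four_pow ht h2 hc', lt_four_pow ht h0 ha'⟩,
    sgn_triple, eta_triple, xor_shift ha' hb' hc']

lemma Dsum_outside {r t n0 n1 n2 : ℕ} (ht : t < 2*r)
    (h : ¬ (n0 < 2 ^ (2*r - (t+1)) ∧ n1 < 2 ^ (2*r - (t+1)))) :
    Dsum r t n0 n1 n2 = 0 := by
  rw [Dsum_eq_range]
  refine Finset.sum_eq_zero (fun a _ => Finset.sum_eq_zero (fun b _ =>
    Finset.sum_eq_zero (fun c _ => ?_)))
  unfold Gd
  have : Sd r (2 ^ (t+1) * n0 + a) (2 ^ (t+1) * n1 + b) = 0 := by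
    unfold Sd
    rw [if_neg]
    intro hh
    apply h
    constructor
    · by_contra h0
      exact ge_four_pow ht (not_lt.mp h0) hh.1
    · by_contra h1
      exact ge_four_pow ht (not_lt.mp h1) hh.2
  rw [this]; ring

end Vale.Agent.Lib.P075
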