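import Mathlib

namespace Vale.Agent.Lib.P075

open MeasureTheory Set

/-- the dyadic interval `[2^k n, 2^k (n+1))` of `D_k` with index `n` -/
def dyI (k : ℤ) (n : ℕ) : Set ℝ := Ico ((2:ℝ) ^ k * n) ((2:ℝ) ^ k * (n + 1))

/-- the Haar function `h_I = 1_{left half} - 1_{right half}` of `I = dyI k n` -/
noncomputable def haar (k : ℤ) (n : ℕ) (x : ℝ) : ℝ :=
  if x ∈ Ico ((2:ℝ) ^ k * n) ((2:ℝ) ^ k * n + (2:ℝ) ^ (k - 1)) then 1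
  else if x ∈ Ico ((2:ℝ) ^ k * n + (2:ℝ) ^ (k - 1)) ((2:ℝ) ^ k * (n + 1)) then -1 else 0

/-- the single-triple form `L_I` for `I = (dyI k n0, dyI k n1, dyI k n2)` -/
noncomputable def LI (k : ℤ) (n0 n1 n2 : ℕ) (F0 F1 F2 : ℝ → ℝ → ℝ) : ℝ :=
  (2:ℝ) ^ (-k) * ∫ x0 in dyI k n0, ∫ x1 in dyI k n1, ∫ x2 in dyI k n2,
    F0 x0 x1 * F1 x1 x2 * F2 x2 x0 * (haar k n0 x0 * haar k n1 x1 * haar k n2 x2)

/-- the dyadic triangular Hilbert form: sum over scales `k ∈ S` with coefficients `ε k` and over all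
triples of `A_k`, which are indexed by `(n0, n1)` with `n2 = n0 XOR n1` -/
noncomputable def LamD (S : Finset ℤ) (ε : ℤ → ℝ) (F0 F1 F2 : ℝ → ℝ → ℝ) : ℝ :=
  ∑ k ∈ S, ε k * ∑' p : ℕ × ℕ, LI k p.1 p.2 (p.1 ^^^ p.2) F0 F1 F2

/-- the `L^p([0,∞)^2)` norm -/
noncomputable def normLp (p : ℝ) (F : ℝ → ℝ → ℝ) : ℝ :=
  (∫ x in Ici (0:ℝ), ∫ y in Ici (0:ℝ), |F x y| ^ p) ^ (1 / p)

/-- real, measurable, bounded, and vanishing outside a bounded subset of `[0,∞)^2` -/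
def Adm (F : ℝ → ℝ → ℝ) : Prop :=
  Measurable (Function.uncurry F) ∧ (∃ M : ℝ, ∀ x y, |F x y| ≤ M) ∧
    ∃ R : ℝ, ∀ x y, F x y ≠ 0 → 0 ≤ x ∧ x ≤ R ∧ 0 ≤ y ∧ y ≤ R

end Vale.Agent.Lib.P075
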