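import Vale.Agent.Lib.P075.Example

namespace Vale.Agent.Lib.P075

open MeasureTheory Set

lemma tsum_LI {r t : ℕ} (ht : t < 2*r) :
    ∑' p : ℕ × ℕ, LI ((t:ℤ) + 1) p.1 p.2 (p.1 ^^^ p.2) (Fex r) (Fex r) (Fex r)
      = (2:ℝ) ^ (-((t:ℤ) + 1)) * ((4:ℝ) ^ r * (4:ℝ) ^ r) * Tsum r t := by
  set M : ℕ := 2 ^ (2*r - (t+1)) with hM
  rw [tsum_eq_sum (s := Finset.range M ×ˢ Finset.range M)]
  · have hterm : ∀ p ∈ Finset.range M ×ˢ Finset.range M,
        LI ((t:ℤ) + 1) p.1 p.2 (p.1 ^^^ p.2) (Fex r) (Fex r) (Fex r)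
          = (2:ℝ) ^ (-((t:ℤ) + 1)) * ((2 ^ (t+1) : ℝ) * (2 ^ (t+1) : ℝ) * Tsum r t) := by
      intro p hp
      rw [Finset.mem_product, Finset.mem_range, Finset.mem_range] at hp
      rw [LI_eq, Dsum_inside ht hp.1 hp.2]
    rw [Finset.sum_congr rfl hterm, Finset.sum_const, Finset.card_product, Finset.card_range,
      nsmul_eq_mul]
    have h4 : (4:ℝ) ^ r = (2 ^ (t+1) : ℝ) * (M : ℝ) := by
      have := four_pow_eq ht
      have h' : ((4 ^ r : ℕ) : ℝ) = ((2 ^ (t+1) * 2 ^ (2*r - (t+1)) : ℕ) : ℝ) := by rw [this]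
      push_cast at h'
      rw [hM]; push_cast; exact h'
    rw [h4]; push_cast; ring
  · intro p hp
    rw [Finset.mem_product, Finset.mem_range, Finset.mem_range] at hp
    rw [LI_eq, Dsum_outside ht hp, mul_zero]

lemma sum_range_two_mul (f : ℕ → ℝ) (r : ℕ) :
    ∑ t ∈ Finset.range (2*r), f t = ∑ i ∈ Finset.range r, (f (2*i) + f (2*i+1)) := by
  induction r with
  | zero => simp
  | succ r ih =>
    have : 2 * (r+1) = 2*r + 1 + 1 := by ring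
    rw [this, Finset.sum_range_succ, Finset.sum_range_succ, ih, Finset.sum_range_succ]; ring

/-- scales `1, ..., 2r` -/
def Sex (r : ℕ) : Finset ℤ :=
  (Finset.range (2*r)).image (fun t : ℕ => (t:ℤ) + 1)

/-- alternating signs -/
noncomputable def epsEx (k : ℤ) : ℝ := if Even k then -1 else 1

lemma abs_epsEx (k : ℤ) : |epsEx k| ≤ 1 := by
  unfold epsEx; split_ifs <;> simp

lemma zpow_neg_succ (t : ℕ) : (2:ℝ) ^ (-((t:ℤ) + 1)) = 1 / 2 ^ (t+1) := by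
  rw [zpow_neg, zpow_succ_cast]; push_cast; rw [one_div]

lemma LamD_ex (r : ℕ) :
    LamD (Sex r) epsEx (Fex r) (Fex r) (Fex r)
      = ((4:ℝ) ^ r * (4:ℝ) ^ r) * (3 * (1 - (1/2:ℝ) ^ r)) := by
  unfold LamD Sex
  rw [Finset.sum_image (fun a _ b _ h => by simpa using h)]
  have h1 : ∀ t ∈ Finset.range (2*r),
      epsEx ((t:ℤ) + 1) * ∑' p : ℕ × ℕ, LI ((t:ℤ) + 1) p.1 p.2 (p.1 ^^^ p.2) (Fex r) (Fex r) (Fex r)
        = epsEx ((t:ℤ) + 1) * ((1 / 2 ^ (t+1)) * ((4:ℝ) ^ r * (4:ℝ) ^ r) *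
            (if t < 2*r then Tsum r t else 0)) := by
    intro t ht
    have ht' := Finset.mem_range.mp ht
    rw [tsum_LI ht', zpow_neg_succ, if_pos ht']
  rw [Finset.sum_congr rfl h1, sum_range_two_mul]
  have h2 : ∀ i ∈ Finset.range r,
      (epsEx (((2*i : ℕ):ℤ) + 1) * ((1 / 2 ^ (2*i+1)) * ((4:ℝ) ^ r * (4:ℝ) ^ r) *
            (if 2*i < 2*r then Tsum r (2*i) else 0))
        + epsEx (((2*i+1 : ℕ):ℤ) + 1) * ((1 / 2 ^ (2*i+1+1)) * ((4:ℝ) ^ r * (4:ℝ) ^ r) *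
            (if 2*i+1 < 2*r then Tsum r (2*i+1) else 0)))
        = ((4:ℝ) ^ r * (4:ℝ) ^ r) * (3/2) * (1/2:ℝ) ^ i := by
    intro i hi
    have hi' := Finset.mem_range.mp hi
    rw [if_pos (by omega), if_pos (by omega), Tsum_even hi', Tsum_odd hi']
    have e1 : epsEx (((2*i : ℕ):ℤ) + 1) = 1 := by
      unfold epsEx
      rw [if_neg]
      rw [Int.not_even_iff_odd]
      exact ⟨i, by push_cast; ring⟩
    have e2 : epsEx (((2*i+1 : ℕ):ℤ) + 1) = -1 := by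
      unfold epsEx
      rw [if_pos]
      exact ⟨(i:ℤ)+1, by push_cast; ring⟩
    rw [e1, e2]
    have p1 : (2:ℝ) ^ (2*i+1) = 2 * (2 ^ i * 2 ^ i) := by rw [pow_succ, two_mul, pow_add]; ring
    have p2 : (2:ℝ) ^ (2*i+1+1) = 4 * (2 ^ i * 2 ^ i) := by rw [pow_succ, p1]; ring
    have p3 : (1/2:ℝ) ^ i = 1 / 2 ^ i := by rw [one_div, inv_pow, one_div]
    rw [p1, p2, p3]
    have hpos : (2:ℝ) ^ i ≠ 0 := by positivity
    field_simp
    ring
  rw [Finset.sum_congr rfl h2, ← Finset.mul_sum, geom_sum_eq (by norm_num)]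
  ring

end Vale.Agent.Lib.P075
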