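import Vale.Agent.Lib.P075.Floor

namespace Vale.Agent.Lib.P075

open MeasureTheory Set

/-- the example: the sign function of the integer parts, on `[0,4^r)^2` -/
noncomputable def Fex (r : ℕ) (x y : ℝ) : ℝ := if 0 ≤ x ∧ 0 ≤ y then Sd r ⌊x⌋₊ ⌊y⌋₊ else 0

lemma zpow_succ_cast (t : ℕ) : (2:ℝ) ^ ((t:ℤ) + 1) = ((2 ^ (t+1) : ℕ) : ℝ) := by
  have : ((t:ℤ) + 1) = ((t+1 : ℕ) : ℤ) := by push_cast; ring
  rw [this, zpow_natCast]; push_cast; ring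

lemma zpow_pred_cast (t : ℕ) : (2:ℝ) ^ ((t:ℤ) + 1 - 1) = ((2 ^ t : ℕ) : ℝ) := by
  have : ((t:ℤ) + 1 - 1) = ((t : ℕ) : ℤ) := by ring
  rw [this, zpow_natCast]; push_cast; ring

lemma dyI_cast (t n : ℕ) :
    dyI ((t:ℤ) + 1) n = Ico ((2 ^ (t+1) * n : ℕ) : ℝ) ((2 ^ (t+1) * (n+1) : ℕ) : ℝ) := by
  unfold dyI
  rw [zpow_succ_cast]
  push_cast
  rfl

lemma eta_of {t n a : ℕ} (ha : a < 2 ^ (t+1)) :
    eta t (2 ^ (t+1) * n + a) = if a < 2 ^ t then 1 else -1 := by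
  unfold eta
  rw [Nat.testBit_two_pow_mul_add _ ha, if_pos (Nat.lt_succ_self t)]
  by_cases h : a < 2 ^ t
  · rw [Nat.testBit_lt_two_pow h, if_pos h]; simp [sgnB]
  · rw [if_neg h]
    obtain ⟨b, rfl⟩ := Nat.exists_eq_add_of_le (not_lt.mp h)
    have hb : b < 2 ^ t := by
      have : 2 ^ (t+1) = 2 ^ t + 2 ^ t := by ring
      omega
    rw [testBit_pow_add hb]; simp [sgnB]

lemma haar_eq {t n : ℕ} {x : ℝ} (hx : x ∈ dyI ((t:ℤ) + 1) n) :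
    haar ((t:ℤ) + 1) n x = eta t ⌊x⌋₊ := by
  rw [dyI_cast] at hx
  have hx0 : (0:ℝ) ≤ x := le_trans (Nat.cast_nonneg _) hx.1
  have h1 : 2 ^ (t+1) * n ≤ ⌊x⌋₊ := Nat.le_floor hx.1
  have h2 : ⌊x⌋₊ < 2 ^ (t+1) * (n+1) := (Nat.floor_lt hx0).mpr hx.2
  obtain ⟨a, ha⟩ := Nat.exists_eq_add_of_le h1
  have ha' : a < 2 ^ (t+1) := by
    rw [ha, Nat.mul_succ] at h2; omega
  rw [ha, eta_of ha']
  unfold haar
  rw [zpow_succ_cast, zpow_pred_cast]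
  have e1 : ((2 ^ (t+1) : ℕ) : ℝ) * (n:ℝ) + ((2 ^ t : ℕ) : ℝ) = ((2 ^ (t+1) * n + 2 ^ t : ℕ) : ℝ) := by
    push_cast; ring
  have e2 : ((2 ^ (t+1) : ℕ) : ℝ) * (n:ℝ) = ((2 ^ (t+1) * n : ℕ) : ℝ) := by push_cast; ring
  have e3 : ((2 ^ (t+1) : ℕ) : ℝ) * ((n:ℝ) + 1) = ((2 ^ (t+1) * (n+1) : ℕ) : ℝ) := by push_cast; ring
  rw [e1, e2, e3]
  have key : x < ((2 ^ (t+1) * n + 2 ^ t : ℕ) : ℝ) ↔ a < 2 ^ t := by
    rw [← Nat.floor_lt hx0, ha]; omega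
  by_cases h : a < 2 ^ t
  · rw [if_pos h, if_pos ⟨hx.1, key.mpr h⟩]
  · have hn : ¬ x < ((2 ^ (t+1) * n + 2 ^ t : ℕ) : ℝ) := fun hh => h (key.mp hh)
    rw [if_neg h, if_neg (fun hh => hn hh.2), if_pos ⟨not_lt.mp hn, hx.2⟩]

lemma nonneg_of_mem_dyI {t n : ℕ} {x : ℝ} (hx : x ∈ dyI ((t:ℤ) + 1) n) : 0 ≤ x := by
  rw [dyI_cast] at hx
  exact le_trans (Nat.cast_nonneg _) hx.1

lemma integral_dyI (g : ℕ → ℝ) (t n : ℕ) :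
    ∫ x in dyI ((t:ℤ) + 1) n, g ⌊x⌋₊ = ∑ i ∈ Finset.Ico (2 ^ (t+1) * n) (2 ^ (t+1) * (n+1)), g i := by
  rw [dyI_cast]
  exact integral_floor g (Nat.mul_le_mul_left _ (Nat.le_succ n))

lemma measurableSet_dyI (k : ℤ) (n : ℕ) : MeasurableSet (dyI k n) := measurableSet_Ico

lemma LI_eq (r t n0 n1 n2 : ℕ) :
    LI ((t:ℤ) + 1) n0 n1 n2 (Fex r) (Fex r) (Fex r)
      = (2:ℝ) ^ (-((t:ℤ) + 1)) * Dsum r t n0 n1 n2 := by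
  unfold LI Dsum
  congr 1
  rw [← integral_dyI (fun a => ∑ b ∈ Finset.Ico (2 ^ (t+1) * n1) (2 ^ (t+1) * (n1+1)),
      ∑ c ∈ Finset.Ico (2 ^ (t+1) * n2) (2 ^ (t+1) * (n2+1)), Gd r t a b c) t n0]
  refine setIntegral_congr_fun (measurableSet_dyI _ _) (fun x0 hx0 => ?_)
  rw [← integral_dyI (fun b => ∑ c ∈ Finset.Ico (2 ^ (t+1) * n2) (2 ^ (t+1) * (n2+1)),
      Gd r t ⌊x0⌋₊ b c) t n1]
  refine setIntegral_congr_fun (measurableSet_dyI _ _) (fun x1 hx1 => ?_)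
  rw [← integral_dyI (fun c => Gd r t ⌊x0⌋₊ ⌊x1⌋₊ c) t n2]
  refine setIntegral_congr_fun (measurableSet_dyI _ _) (fun x2 hx2 => ?_)
  have p0 := nonneg_of_mem_dyI hx0
  have p1 := nonneg_of_mem_dyI hx1
  have p2 := nonneg_of_mem_dyI hx2
  rw [haar_eq hx0, haar_eq hx1, haar_eq hx2]
  unfold Fex Gd
  rw [if_pos ⟨p0, p1⟩, if_pos ⟨p1, p2⟩, if_pos ⟨p2, p0⟩]

end Vale.Agent.Lib.P075
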