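import Vale.Agent.Lib.P075.Defs
import Vale.Agent.Lib.P075.Comb2

namespace Vale.Agent.Lib.P075

open MeasureTheory Set

lemma floor_on_unit {b : ℕ} {x : ℝ} (hx : x ∈ Ico (b:ℝ) ((b:ℝ)+1)) : ⌊x⌋₊ = b := by
  have h0 : (0:ℝ) ≤ x := le_trans (Nat.cast_nonneg b) hx.1
  exact (Nat.floor_eq_iff h0).mpr ⟨hx.1, hx.2⟩

lemma integral_floor_aux (g : ℕ → ℝ) (a : ℕ) : ∀ n : ℕ,
    IntegrableOn (fun x : ℝ => g ⌊x⌋₊) (Ico (a:ℝ) ((a + n : ℕ) : ℝ)) ∧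
    ∫ x in Ico (a:ℝ) ((a + n : ℕ) : ℝ), g ⌊x⌋₊ = ∑ i ∈ Finset.Ico a (a + n), g i := by
  intro n
  induction n with
  | zero => simp
  | succ n ih =>
    obtain ⟨ih1, ih2⟩ := ih
    have hU : Ico (a:ℝ) ((a + (n+1) : ℕ) : ℝ)
        = Ico (a:ℝ) ((a + n : ℕ) : ℝ) ∪ Ico ((a + n : ℕ) : ℝ) (((a + n : ℕ) : ℝ) + 1) := by
      rw [Set.Ico_union_Ico_eq_Ico]
      · push_cast; ring_nf
      · push_cast; linarith [Nat.cast_nonneg (α := ℝ) n]
      · linarith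
    have hc : IntegrableOn (fun x : ℝ => g ⌊x⌋₊) (Ico ((a + n : ℕ) : ℝ) (((a + n : ℕ) : ℝ) + 1)) := by
      have : IntegrableOn (fun _ : ℝ => g (a+n)) (Ico ((a + n : ℕ) : ℝ) (((a + n : ℕ) : ℝ) + 1)) :=
        integrableOn_const (by simp)
      refine this.congr_fun (fun x hx => ?_) measurableSet_Ico
      simp only [floor_on_unit hx]
    have hi : ∫ x in Ico ((a + n : ℕ) : ℝ) (((a + n : ℕ) : ℝ) + 1), g ⌊x⌋₊ = g (a+n) := by
      rw [setIntegral_congr_fun measurableSet_Ico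
        (g := fun _ => g (a+n)) (fun x hx => by simp only [floor_on_unit hx])]
      simp
    have hd : Disjoint (Ico (a:ℝ) ((a + n : ℕ) : ℝ)) (Ico ((a + n : ℕ) : ℝ) (((a + n : ℕ) : ℝ) + 1)) := by
      rw [Set.disjoint_left]
      intro x hx hx'
      exact absurd hx.2 (not_lt.mpr hx'.1)
    constructor
    · rw [hU]; exact ih1.union hc
    · rw [hU, setIntegral_union hd measurableSet_Ico ih1 hc, ih2, hi]
      rw [← add_assoc, Finset.sum_Ico_succ_top (by omega)]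

lemma integral_floor (g : ℕ → ℝ) {a b : ℕ} (hab : a ≤ b) :
    ∫ x in Ico (a:ℝ) (b:ℝ), g ⌊x⌋₊ = ∑ i ∈ Finset.Ico a b, g i := by
  obtain ⟨n, rfl⟩ := Nat.exists_eq_add_of_le hab
  exact (integral_floor_aux g a n).2

end Vale.Agent.Lib.P075
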