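import Vale.Agent.Lib.P075.Eval

namespace Vale.Agent.Lib.P075

open MeasureTheory Set

lemma abs_Fex_rpow (r : ℕ) {p : ℝ} (hp : 0 < p) (x y : ℝ) :
    |Fex r x y| ^ p
      = (Ico (0:ℝ) ((4:ℝ) ^ r)).indicator
          (fun _ => (Ico (0:ℝ) ((4:ℝ) ^ r)).indicator (fun _ => (1:ℝ)) x) y := by
  have hN : ((4 ^ r : ℕ) : ℝ) = (4:ℝ) ^ r := by push_cast; ring
  unfold Fex Sd
  by_cases hx : x ∈ Ico (0:ℝ) ((4:ℝ) ^ r)
  · by_cases hy : y ∈ Ico (0:ℝ) ((4:ℝ) ^ r)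
    · rw [indicator_of_mem hy, indicator_of_mem hx, if_pos ⟨hx.1, hy.1⟩, if_pos, abs_sgnFn,
        Real.one_rpow]
      exact ⟨(Nat.floor_lt hx.1).mpr (by rw [hN]; exact hx.2),
        (Nat.floor_lt hy.1).mpr (by rw [hN]; exact hy.2)⟩
    · rw [indicator_of_notMem hy]
      by_cases h0 : 0 ≤ y
      · rw [if_pos ⟨hx.1, h0⟩, if_neg, abs_zero, Real.zero_rpow hp.ne']
        intro h
        exact hy ⟨h0, by rw [← hN]; exact (Nat.floor_lt h0).mp h.2⟩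
      · rw [if_neg (fun h => h0 h.2), abs_zero, Real.zero_rpow hp.ne']
  · have : (Ico (0:ℝ) ((4:ℝ) ^ r)).indicator (fun _ => (1:ℝ)) x = 0 := indicator_of_notMem hx _
    rw [this]
    have hz : (Ico (0:ℝ) ((4:ℝ) ^ r)).indicator (fun _ => (0:ℝ)) y = 0 := by simp
    rw [hz]
    by_cases h0 : 0 ≤ x
    · by_cases h1 : 0 ≤ y
      · rw [if_pos ⟨h0, h1⟩, if_neg, abs_zero, Real.zero_rpow hp.ne']
        intro h
        exact hx ⟨h0, by rw [← hN]; exact (Nat.floor_lt h0).mp h.1⟩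
      · rw [if_neg (fun h => h1 h.2), abs_zero, Real.zero_rpow hp.ne']
    · rw [if_neg (fun h => h0 h.1), abs_zero, Real.zero_rpow hp.ne']

lemma integral_Ici_indicator (N c : ℝ) (hN : 0 ≤ N) :
    ∫ y in Ici (0:ℝ), (Ico (0:ℝ) N).indicator (fun _ => c) y = N * c := by
  rw [setIntegral_indicator measurableSet_Ico]
  have : Ici (0:ℝ) ∩ Ico (0:ℝ) N = Ico (0:ℝ) N := by
    ext z; simp only [mem_inter_iff, mem_Ici, mem_Ico]; tauto
  rw [this, setIntegral_const]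
  simp [Measure.real, Real.volume_Ico, hN]

lemma normLp_Fex (r : ℕ) {p : ℝ} (hp : 0 < p) :
    normLp p (Fex r) = ((4:ℝ) ^ r * (4:ℝ) ^ r) ^ (1 / p) := by
  unfold normLp
  congr 1
  have hN : (0:ℝ) ≤ (4:ℝ) ^ r := by positivity
  have h1 : ∀ x : ℝ, ∫ y in Ici (0:ℝ), |Fex r x y| ^ p
      = (Ico (0:ℝ) ((4:ℝ) ^ r)).indicator (fun _ => (4:ℝ) ^ r) x := by
    intro x
    simp_rw [abs_Fex_rpow r hp x]
    rw [integral_Ici_indicator _ _ hN]
    by_cases hx : x ∈ Ico (0:ℝ) ((4:ℝ) ^ r)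
    · rw [indicator_of_mem hx, indicator_of_mem hx, mul_one]
    · rw [indicator_of_notMem hx, indicator_of_notMem hx, mul_zero]
  simp_rw [h1]
  rw [integral_Ici_indicator _ _ hN]

lemma Adm_Fex (r : ℕ) : Adm (Fex r) := by
  refine ⟨?_, ⟨1, ?_⟩, ⟨(4:ℝ) ^ r, ?_⟩⟩
  · have hs : MeasurableSet {q : ℝ × ℝ | 0 ≤ q.1 ∧ 0 ≤ q.2} :=
      (measurableSet_le measurable_const measurable_fst).inter
        (measurableSet_le measurable_const measurable_snd)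
    have hm : Measurable (fun q : ℝ × ℝ => Sd r ⌊q.1⌋₊ ⌊q.2⌋₊) := by
      have h1 : Measurable (fun q : ℝ × ℝ => ((⌊q.1⌋₊, ⌊q.2⌋₊) : ℕ × ℕ)) :=
        (Nat.measurable_floor.comp measurable_fst).prodMk (Nat.measurable_floor.comp measurable_snd)
      have h2 : Measurable (fun n : ℕ × ℕ => Sd r n.1 n.2) := Measurable.of_discrete
      exact h2.comp h1
    exact Measurable.ite hs hm measurable_const
  · intro x y
    unfold Fex Sd
    split_ifs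
    · rw [abs_sgnFn]
    · simp
    · simp
  · intro x y h
    have hN : ((4 ^ r : ℕ) : ℝ) = (4:ℝ) ^ r := by push_cast; ring
    unfold Fex Sd at h
    by_cases h0 : 0 ≤ x ∧ 0 ≤ y
    · rw [if_pos h0] at h
      by_cases h1 : ⌊x⌋₊ < 4 ^ r ∧ ⌊y⌋₊ < 4 ^ r
      · refine ⟨h0.1, ?_, h0.2, ?_⟩
        · rw [← hN]; exact ((Nat.floor_lt h0.1).mp h1.1).le
        · rw [← hN]; exact ((Nat.floor_lt h0.2).mp h1.2).le
      · rw [if_neg h1] at h; exact absurd rfl h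
    · rw [if_neg h0] at h; exact absurd rfl h

end Vale.Agent.Lib.P075
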